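import Vale.Agent.P159.T1.H934.CoverDefs
import Vale.Agent.P159.T1.D.H757.Ring

/-!
Statements used for `StmtRing` (P159, plan 115, row D.LOW): log-polar calculus, the angular
profile, and the lattice limit of the difference of the charge field and of the gradient of the
test function.
-/

open Filter Topology MeasureTheory Set

namespace Vale.Agent.P159.T1.D

/-- logarithm of the distance from the tip -/
noncomputable def lr (z : ℝ × ℝ) : ℝ := Real.log (Real.sqrt (z.1 ^ 2 + z.2 ^ 2))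

/-- the angle in `(-π, π]` -/
noncomputable def ar (z : ℝ × ℝ) : ℝ := Complex.arg ⟨z.1, z.2⟩

/-- product function in log-polar coordinates -/
noncomputable def pol (η u : ℝ → ℝ) (z : ℝ × ℝ) : ℝ := η (lr z) * u (ar z)

/-- the coefficient as a function of the angle: the cone is `(-π, -π + ang q)` -/
noncomputable def cth (Y V : ℝ) (q : ℕ) (θ : ℝ) : ℝ :=
  if θ < -Real.pi + ang q then V / (Y * ang q) else -(V / (Y * (2 * Real.pi - ang q)))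

/-- POL.A: regularity and support -/
def StmtPolA : Prop :=
  ∀ η u : ℝ → ℝ, ContDiff ℝ 2 η → ContDiff ℝ 2 u → HasCompactSupport η →
    (0 : ℝ) ∉ tsupport η → tsupport u ⊆ Ioo (-Real.pi) Real.pi →
    ContDiff ℝ 2 (pol η u) ∧ HasCompactSupport (pol η u) ∧
      ∀ z ∈ tsupport (pol η u), z ≠ 0 ∧ lr z ∈ tsupport η ∧ ar z ∈ tsupport u

/-- POL.B: the Dirichlet energy -/
def StmtPolB : Prop :=
  ∀ η u : ℝ → ℝ, ContDiff ℝ 2 η → ContDiff ℝ 2 u → HasCompactSupport η →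
    tsupport u ⊆ Ioo (-Real.pi) Real.pi →
    Dir (pol η u) = (∫ τ, deriv η τ ^ 2) * (∫ θ, u θ ^ 2) +
      (∫ τ, η τ ^ 2) * (∫ θ, deriv u θ ^ 2)

/-- the energy density of the difference of the rotated field `c ∇Ψ` and of `∇Φ` -/
noncomputable def dens (Y V : ℝ) (q : ℕ) (Ψ Φ : ℝ × ℝ → ℝ) (z : ℝ × ℝ) : ℝ :=
  (cth Y V q (ar z) * fderiv ℝ Ψ z (1, 0) - fderiv ℝ Φ z (0, 1)) ^ 2 +
    (cth Y V q (ar z) * fderiv ℝ Ψ z (0, 1) + fderiv ℝ Φ z (1, 0)) ^ 2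

/-- POL.C: the energy of the difference -/
def StmtPolC : Prop :=
  ∀ (Y V : ℝ) (q : ℕ) (Γ u : ℝ → ℝ), 0 < Y → 0 < V → 1 ≤ q → ContDiff ℝ 3 Γ → ContDiff ℝ 2 u →
    HasCompactSupport (deriv Γ) → tsupport u ⊆ Ioo (-Real.pi) Real.pi →
    ∫ z, dens Y V q (fun w => Γ (lr w)) (pol (deriv Γ) u) z =
      (∫ τ, deriv Γ τ ^ 2) * (∫ θ in (-Real.pi)..Real.pi, (cth Y V q θ - deriv u θ) ^ 2) +
        (∫ τ, deriv (deriv Γ) τ ^ 2) * (∫ θ, u θ ^ 2)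

/-- POL.D: a smooth angular profile whose derivative is close to the coefficient -/
def StmtPolD : Prop :=
  ∀ (Y V : ℝ) (q : ℕ), 0 < Y → 0 < V → 1 ≤ q → ∀ δ : ℝ, 0 < δ →
    ∃ u : ℝ → ℝ, ContDiff ℝ 2 u ∧ tsupport u ⊆ Ioo (-Real.pi) Real.pi ∧
      ∫ θ in (-Real.pi)..Real.pi, (cth Y V q θ - deriv u θ) ^ 2 ≤ δ

/-- POL.E: decomposition of the profile into five pieces (upper left, top, right, bottom, lower
left) -/
def StmtPolE : Prop :=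
  ∀ u : ℝ → ℝ, ContDiff ℝ 2 u → tsupport u ⊆ Ioo (-Real.pi) Real.pi →
    ∃ (w : Fin 5 → ℝ → ℝ) (α : ℝ), 0 < α ∧ (∀ i, ContDiff ℝ 2 (w i)) ∧
      (∀ θ, u θ = ∑ i, w i θ) ∧
      tsupport (w 0) ⊆ Icc (Real.pi / 2 + α) (Real.pi - α) ∧
      tsupport (w 1) ⊆ Icc α (Real.pi - α) ∧
      tsupport (w 2) ⊆ Icc (-(Real.pi / 2) + α) (Real.pi / 2 - α) ∧
      tsupport (w 3) ⊆ Icc (-Real.pi + α) (-α) ∧
      tsupport (w 4) ⊆ Icc (-Real.pi + α) (-(Real.pi / 2) - α)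

/-- BG: the lattice limit of the difference of the field of the charges and of the gradient of
the test function -/
def StmtBG : Prop :=
  ∀ (Y V : ℝ) (q : ℕ) (Γ : ℝ → ℝ) (T : ℝ) (Φ : ℝ × ℝ → ℝ), 0 < Y → 0 < V → 1 ≤ q →
    ContDiff ℝ 2 Γ → (∀ τ ≤ 1, Γ τ = Γ 1) → (∀ τ ≥ T, Γ τ = Γ T) → ContDiff ℝ 2 Φ →
    HasCompactSupport Φ → ∃ L0 : ℕ, ∀ L ≥ L0, ∀ (l : ℕ) (ε : ℝ), 0 < ε → ∃ n0 : ℕ, ∀ n ≥ n0,
      (∀ e, e ∉ Sb L n → Bf Y V q (fun τ => Γ (τ - Real.log n)) e - dr (smp Φ n 0) e = 0) ∧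
      ∑ e ∈ Sb L n, (Bf Y V q (fun τ => Γ (τ - Real.log n)) e - dr (smp Φ n 0) e) ^ 2 ≤
        (∫ z, dens Y V q (fun w => Γ (lr w)) Φ z) + ε ∧
      osc l (Sb L n)
        (fun e => Bf Y V q (fun τ => Γ (τ - Real.log n)) e - dr (smp Φ n 0) e) ≤ ε

end Vale.Agent.P159.T1.D
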