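import Vale.Agent.P159.T1.D.H770.RingMain
import Vale.Agent.P159.T1.H934.Hpos
import Vale.Agent.P159.T1.D.H226.Lat2
import Vale.Agent.P159.T1.D.H226.BG
import Vale.Agent.P159.T1.D.H414.PolAB
import Vale.Agent.P159.T1.D.H395.PolC
import Vale.Agent.P159.T1.D.H831.PolD
import Vale.Agent.P159.T1.D.H831.PolE
import Vale.Agent.P159.T1.D.H757.Low

/-!
Rows RING and LOW of P159 T1: `StmtRing` and `StmtLow` from `StmtV` and `StmtUV`.
-/

namespace Vale.Agent.P159.T1.D.H770

theorem stmtRing (hV : StmtV) (hUV : StmtUV) : StmtRing :=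
  ring_of (H934.gv' hV hUV stmtLat) hUV
    (fun η u hη hu hc h0 hs => H414.polA η u hη hu hc h0 hs)
    H414.stmtPolB H395.stmtPolC H831.stmtPolD H831.stmtPolE stmtBG

theorem stmtLow (hV : StmtV) (hUV : StmtUV) : StmtLow :=
  H757.stmtLow_of_ring (stmtRing hV hUV)

end Vale.Agent.P159.T1.D.H770
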