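import Mathlib

/-!
Final arithmetic of `ring_of`.
-/

namespace Vale.Agent.P159.T1.D.H770

lemma arith0 {Y Sg ε x X δ p A B2 Aw Bw J0 J1 ℓ W Cg κ κ' v vg vd δ' : ℝ}
    (hY : 0 < Y) (hX0 : 0 < X) (hδ2 : X * (Y + 1) * δ ≤ Y * Sg * ε / 16)
    (hp0 : 0 < p) (hA0 : 0 ≤ A) (hB0 : 0 ≤ B2) (hAw0 : 0 ≤ Aw) (hBw0 : 0 ≤ Bw)
    (hW : W = J1 * Aw + p * Bw) (hJ1 : 0 ≤ J1) (hCg : 0 < Cg) (hM1 : 1 ≤ ℓ)
    (hMm : 5 * Y * Cg * W * κ' + (1 + X * ((Y + 1) * (J1 * B2) + 1)) / ℓ ≤ Y * Sg * p * ε / 4)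
    (hJ0 : p - 4 ≤ J0) (hJ00 : 0 ≤ J0) (hJ0' : J0 ≤ p) (hκ0 : 0 ≤ κ) (hκ : κ ≤ κ')
    (hδ0 : 0 ≤ δ') (hδ : δ' ≤ δ)
    (g1 : Y * (J1 / ℓ * B2 + ℓ * J0 * A) -
      5 * (Y * Cg * κ * (J1 / ℓ * Aw + ℓ * J0 * Bw)) - 1 ≤ vg)
    (g2 : vd ≤ (Y + 1) * (ℓ * J0 * δ' + J1 / ℓ * B2) + 1)
    (g3 : vg ≤ (1 + x) * v + X * vd) :
    Y * (ℓ * (p - 4) * A) - Y * Sg * ε / 16 * (ℓ * p) - Y * Sg * p * ε / 4 * ℓ ≤
      (1 + x) * v := by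
  have hℓ0 : 0 < ℓ := by linarith
  have k1 : J1 / ℓ ≤ J1 := div_le_self hJ1 hM1
  have k1' : 0 ≤ J1 / ℓ := by positivity
  have k2 : J1 / ℓ * Aw + ℓ * J0 * Bw ≤ ℓ * W := by
    have h0 : J1 ≤ ℓ * J1 := le_mul_of_one_le_left hJ1 hM1
    have h1 : J1 / ℓ * Aw ≤ ℓ * J1 * Aw := mul_le_mul_of_nonneg_right (k1.trans h0) hAw0
    have h3 : ℓ * J0 * Bw ≤ ℓ * p * Bw :=
      mul_le_mul_of_nonneg_right (mul_le_mul_of_nonneg_left hJ0' hℓ0.le) hBw0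
    calc J1 / ℓ * Aw + ℓ * J0 * Bw ≤ ℓ * J1 * Aw + ℓ * p * Bw := add_le_add h1 h3
      _ = ℓ * W := by rw [hW]; ring
  have k2' : 0 ≤ J1 / ℓ * Aw + ℓ * J0 * Bw := by positivity
  have k3 : 5 * (Y * Cg * κ * (J1 / ℓ * Aw + ℓ * J0 * Bw)) ≤ 5 * Y * Cg * W * κ' * ℓ := by
    have h1 : κ * (J1 / ℓ * Aw + ℓ * J0 * Bw) ≤ κ' * (ℓ * W) :=
      mul_le_mul hκ k2 k2' (hκ0.trans hκ)
    have h4 := mul_le_mul_of_nonneg_left h1 (by positivity : 0 ≤ 5 * (Y * Cg))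
    calc 5 * (Y * Cg * κ * (J1 / ℓ * Aw + ℓ * J0 * Bw)) =
        5 * (Y * Cg) * (κ * (J1 / ℓ * Aw + ℓ * J0 * Bw)) := by ring
      _ ≤ 5 * (Y * Cg) * (κ' * (ℓ * W)) := h4
      _ = 5 * Y * Cg * W * κ' * ℓ := by ring
  have k4 : ℓ * J0 * δ' + J1 / ℓ * B2 ≤ ℓ * p * δ + J1 * B2 := by
    have h1 : ℓ * J0 * δ' ≤ ℓ * p * δ :=
      mul_le_mul (mul_le_mul_of_nonneg_left hJ0' hℓ0.le) hδ hδ0 (by positivity)
    exact add_le_add h1 (mul_le_mul_of_nonneg_right k1 hB0)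
  have k5 : vd ≤ (Y + 1) * (ℓ * p * δ + J1 * B2) + 1 := by
    have := mul_le_mul_of_nonneg_left k4 (by positivity : 0 ≤ Y + 1)
    linarith
  have k6 : X * vd ≤ X * (Y + 1) * δ * (ℓ * p) + X * ((Y + 1) * (J1 * B2) + 1) := by
    calc X * vd ≤ X * ((Y + 1) * (ℓ * p * δ + J1 * B2) + 1) :=
          mul_le_mul_of_nonneg_left k5 hX0.le
      _ = X * (Y + 1) * δ * (ℓ * p) + X * ((Y + 1) * (J1 * B2) + 1) := by ring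
  have k7 : Y * (ℓ * (p - 4) * A) ≤ Y * (J1 / ℓ * B2 + ℓ * J0 * A) := by
    refine mul_le_mul_of_nonneg_left ?_ hY.le
    have h1 : 0 ≤ J1 / ℓ * B2 := by positivity
    have h2 : ℓ * (p - 4) * A ≤ ℓ * J0 * A :=
      mul_le_mul_of_nonneg_right (mul_le_mul_of_nonneg_left hJ0 hℓ0.le) hA0
    linarith
  have k8 : 5 * Y * Cg * W * κ' * ℓ + (1 + X * ((Y + 1) * (J1 * B2) + 1)) ≤
      Y * Sg * p * ε / 4 * ℓ := by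
    have := mul_le_mul_of_nonneg_right hMm hℓ0.le
    rw [add_mul, div_mul_cancel₀ _ hℓ0.ne'] at this
    exact this
  have k10 : X * (Y + 1) * δ * (ℓ * p) ≤ Y * Sg * ε / 16 * (ℓ * p) :=
    mul_le_mul_of_nonneg_right hδ2 (by positivity)
  linarith

/-- the final arithmetic -/
theorem arith {Y Sg ε ε0 x p A ℓ v : ℝ}
    (hY : 0 < Y) (hS0 : 0 < Sg) (hε : 0 < ε) (hεle : ε ≤ ε0) (hεh : ε ≤ 1 / 2) (hx : x = ε / 8)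
    (hp : 5 ≤ p) (hp4 : p * (1 - ε / 16) ≤ p - 4)
    (hAge : Sg * (1 - ε / 16) ≤ (1 + x) * A) (hM1 : 1 ≤ ℓ)
    (k11 : Y * (ℓ * (p - 4) * A) - Y * Sg * ε / 16 * (ℓ * p) - Y * Sg * p * ε / 4 * ℓ ≤
      (1 + x) * v) :
    (1 - ε0) * (Y * Sg * p * ℓ) ≤ v := by
  have hℓ0 : 0 < ℓ := by linarith
  have hp0 : 0 < p := by linarith
  have hx0 : 0 < x := by rw [hx]; positivity
  obtain ⟨T, hT⟩ : ∃ T, T = Y * Sg * p * ℓ := ⟨_, rfl⟩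
  have hT0 : 0 < T := by rw [hT]; positivity
  have k12 : T * (1 - ε / 16) ^ 2 ≤ (1 + x) * (Y * (ℓ * (p - 4) * A)) := by
    have h0 : 0 ≤ 1 - ε / 16 := by linarith
    have h1 : (p * (1 - ε / 16)) * (Sg * (1 - ε / 16)) ≤ (p - 4) * ((1 + x) * A) :=
      mul_le_mul hp4 hAge (by positivity) (by linarith)
    have h2 := mul_le_mul_of_nonneg_left h1 (by positivity : 0 ≤ Y * ℓ)
    calc T * (1 - ε / 16) ^ 2 = Y * ℓ * ((p * (1 - ε / 16)) * (Sg * (1 - ε / 16))) := by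
          rw [hT]; ring
      _ ≤ Y * ℓ * ((p - 4) * ((1 + x) * A)) := h2
      _ = (1 + x) * (Y * (ℓ * (p - 4) * A)) := by ring
  have k13 : (1 + x) * (Y * (ℓ * (p - 4) * A)) - T * ((1 + x) * (ε / 16 + ε / 4)) ≤
      (1 + x) ^ 2 * v := by
    calc (1 + x) * (Y * (ℓ * (p - 4) * A)) - T * ((1 + x) * (ε / 16 + ε / 4)) =
        (1 + x) * (Y * (ℓ * (p - 4) * A) - Y * Sg * ε / 16 * (ℓ * p) -
          Y * Sg * p * ε / 4 * ℓ) := by rw [hT]; ring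
      _ ≤ (1 + x) * ((1 + x) * v) := mul_le_mul_of_nonneg_left k11 (by linarith)
      _ = (1 + x) ^ 2 * v := by ring
  have k15 : (1 + x) ^ 2 * ((1 - ε) * T) ≤
      T * (1 - ε / 16) ^ 2 - T * ((1 + x) * (ε / 16 + ε / 4)) := by
    have h1 : (1 + x) ^ 2 * (1 - ε) ≤ (1 - ε / 16) ^ 2 - (1 + x) * (ε / 16 + ε / 4) := by
      rw [hx]
      have e : (1 - ε / 16) ^ 2 - (1 + ε / 8) * (ε / 16 + ε / 4) - (1 + ε / 8) ^ 2 * (1 - ε) =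
          ε * (5 / 16 + ε * (51 / 256) + ε ^ 2 / 64) := by ring
      have h2 : 0 ≤ ε * (5 / 16 + ε * (51 / 256) + ε ^ 2 / 64) := by positivity
      linarith
    have h2 := mul_le_mul_of_nonneg_left h1 hT0.le
    calc (1 + x) ^ 2 * ((1 - ε) * T) = T * ((1 + x) ^ 2 * (1 - ε)) := by ring
      _ ≤ T * ((1 - ε / 16) ^ 2 - (1 + x) * (ε / 16 + ε / 4)) := h2
      _ = T * (1 - ε / 16) ^ 2 - T * ((1 + x) * (ε / 16 + ε / 4)) := by ring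
  have k16 : (1 - ε) * T ≤ v := by
    have h1 : 0 < (1 + x) ^ 2 := by positivity
    refine le_of_mul_le_mul_left (k15.trans ?_) h1
    linarith
  rw [← hT]
  have : (1 - ε0) * T ≤ (1 - ε) * T := mul_le_mul_of_nonneg_right (by linarith) hT0.le
  linarith

end Vale.Agent.P159.T1.D.H770
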