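import Vale.Agent.P159.T1.D.H770.RingDefs

/-!
The five quarter planes which cover the slit ring: corners, boxes, supports of the pieces.
-/

open Filter Topology MeasureTheory Set

namespace Vale.Agent.P159.T1.D.H770

/-- corners in the continuum -/
def vv (S : ℕ) : Fin 5 → ℝ × ℝ :=
  ![(-1, 0), (-(S : ℝ), 1), (1, -(S : ℝ)), (-(S : ℝ), -1), (-1, 0)]

/-- orientations -/
def xx : Fin 5 → Bool := ![false, true, true, true, false]

/-- orientations -/
def yy : Fin 5 → Bool := ![true, true, true, false, false]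

/-- corners on the lattice -/
def uu (S n : ℕ) : Fin 5 → Z2 :=
  ![(-(n : ℤ), 0), (-((S : ℤ) * n), (n : ℤ)), ((n : ℤ), -((S : ℤ) * n)),
    (-((S : ℤ) * n), -(n : ℤ)), (-(n : ℤ), -1)]

lemma uu_vv (S n : ℕ) (i : Fin 5) : |((uu S n i).1 : ℝ) - n * (vv S i).1| ≤ 1 ∧
    |((uu S n i).2 : ℝ) - n * (vv S i).2| ≤ 1 := by
  fin_cases i <;> simp [uu, vv, mul_comm]

lemma box_ann {K R S n : ℕ} (hn : 1 ≤ n) (hR : R + 2 ≤ K) (hS : S + 1 ≤ K) (i : Fin 5) (f : Z2)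
    (h1 : 0 ≤ f.1) (h2 : f.1 < n * R) (h3 : 0 ≤ f.2) (h4 : f.2 < n * R) :
    iso (uu S n i) (xx i) (yy i) false f ∈ ann n (K * n - 1) := by
  have e1 : ((K * n - 1 : ℕ) : ℤ) = (n : ℤ) * K - 1 := by
    have : 1 ≤ K * n := Nat.one_le_iff_ne_zero.2 (Nat.mul_ne_zero (by omega) (by omega))
    push_cast [Nat.cast_sub this]
    ring
  have e2 : (n : ℤ) * R + 2 * n ≤ (n : ℤ) * K := by
    have : ((R : ℤ) + 2) ≤ K := by exact_mod_cast hR
    nlinarith [Int.natCast_nonneg n]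
  have e3 : (S : ℤ) * n + n ≤ (n : ℤ) * K := by
    have : ((S : ℤ) + 1) ≤ K := by exact_mod_cast hS
    nlinarith [Int.natCast_nonneg n]
  have e4 : 0 ≤ (S : ℤ) * n := by positivity
  have e5 : (1 : ℤ) ≤ n := by exact_mod_cast hn
  obtain ⟨A, hA⟩ : ∃ A : ℤ, A = (n : ℤ) * K := ⟨_, rfl⟩
  obtain ⟨B, hB⟩ : ∃ B : ℤ, B = (S : ℤ) * n := ⟨_, rfl⟩
  obtain ⟨D, hD⟩ : ∃ D : ℤ, D = (n : ℤ) * R := ⟨_, rfl⟩
  rw [← hA] at e1 e2 e3
  rw [← hB] at e3 e4
  rw [← hD] at e2 h2 h4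
  unfold ann
  rw [Finset.mem_filter, Finset.mem_product, Finset.mem_Ico, Finset.mem_Ico, e1]
  fin_cases i <;> simp only [iso, uu, xx, yy, ← hB] <;> simp <;> omega

/-! ### polar coordinates -/

lemma norm_eq {z : ℝ × ℝ} (hz : z ≠ 0) : Real.sqrt (z.1 ^ 2 + z.2 ^ 2) = Real.exp (lr z) := by
  unfold lr
  rw [Real.exp_log]
  refine Real.sqrt_pos.2 ?_
  have h : z.1 ≠ 0 ∨ z.2 ≠ 0 := by
    by_contra h
    push Not at h
    exact hz (Prod.ext h.1 h.2)
  rcases h with h | h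
  · have := sq_pos_of_ne_zero h
    nlinarith [sq_nonneg z.2]
  · have := sq_pos_of_ne_zero h
    nlinarith [sq_nonneg z.1]

lemma cnorm_eq (z : ℝ × ℝ) : ‖(⟨z.1, z.2⟩ : ℂ)‖ = Real.sqrt (z.1 ^ 2 + z.2 ^ 2) := by
  rw [Complex.norm_def, Complex.normSq_mk]
  ring_nf

lemma fst_eq {z : ℝ × ℝ} (hz : z ≠ 0) : z.1 = Real.exp (lr z) * Real.cos (ar z) := by
  have h := Complex.norm_mul_cos_arg (⟨z.1, z.2⟩ : ℂ)
  rw [cnorm_eq, norm_eq hz] at h
  exact h.symm

lemma snd_eq {z : ℝ × ℝ} (hz : z ≠ 0) : z.2 = Real.exp (lr z) * Real.sin (ar z) := by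
  have h := Complex.norm_mul_sin_arg (⟨z.1, z.2⟩ : ℂ)
  rw [cnorm_eq, norm_eq hz] at h
  exact h.symm

lemma sin_ge {a x : ℝ} (ha : 0 < a) (h1 : a ≤ x) (h2 : x ≤ Real.pi - a) :
    Real.sin a ≤ Real.sin x := by
  have hpi := Real.pi_pos
  rcases le_total x (Real.pi / 2) with h | h
  · exact Real.sin_le_sin_of_le_of_le_pi_div_two (by linarith) h h1
  · rw [← Real.sin_pi_sub x]
    exact Real.sin_le_sin_of_le_of_le_pi_div_two (by linarith) (by linarith) (by linarith)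

lemma cos_le {a x : ℝ} (ha : 0 < a) (h1 : Real.pi / 2 + a ≤ x) (h2 : x ≤ Real.pi) :
    Real.cos x ≤ -Real.sin a := by
  have hpi := Real.pi_pos
  have h := Real.cos_le_cos_of_nonneg_of_le_pi (x := Real.pi / 2 + a) (y := x) (by linarith) h2 h1
  have h3 : Real.cos (Real.pi / 2 + a) = -Real.sin a := by
    rw [add_comm, Real.cos_add_pi_div_two]
  rwa [h3] at h

lemma cos_ge {a x : ℝ} (ha : 0 < a) (h1 : -(Real.pi / 2) + a ≤ x) (h2 : x ≤ Real.pi / 2 - a) :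
    Real.sin a ≤ Real.cos x := by
  have h := sin_ge (x := Real.pi / 2 - x) ha (by linarith) (by linarith)
  rwa [Real.sin_pi_div_two_sub] at h

/-- supports of the pieces in the angle -/
def sec5 (a : ℝ) : Fin 5 → Set ℝ :=
  ![Icc (Real.pi / 2 + a) (Real.pi - a), Icc a (Real.pi - a),
    Icc (-(Real.pi / 2) + a) (Real.pi / 2 - a), Icc (-Real.pi + a) (-a),
    Icc (-Real.pi + a) (-(Real.pi / 2) - a)]

/-- the support of a piece is in the open quarter plane -/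
theorem piece_quad {a M P : ℝ} {S N : ℕ} (ha : 0 < a) (hM : 1 < M * Real.sin a) (hM0 : 0 < M)
    (hS : P < S) (hN : P + S ≤ N) {z : ℝ × ℝ} (hz : z ≠ 0) (h1 : M ≤ Real.exp (lr z))
    (h2 : Real.exp (lr z) ≤ P) {i : Fin 5} (h3 : ar z ∈ sec5 a i) :
    ∃ q : ℝ × ℝ, 0 < q.1 ∧ q.1 ≤ N ∧ 0 < q.2 ∧ q.2 ≤ N ∧
      isoR (vv S i) (xx i) (yy i) false q = z := by
  obtain ⟨ρ, hρ⟩ : ∃ ρ, ρ = Real.exp (lr z) := ⟨_, rfl⟩
  have e1 := fst_eq hz
  have e2 := snd_eq hz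
  rw [← hρ] at e1 e2 h1 h2
  have hρ0 : 0 < ρ := lt_of_lt_of_le hM0 h1
  have hs0 : 0 < Real.sin a := by
    by_contra h
    push Not at h
    nlinarith
  have hρs : 1 < ρ * Real.sin a := lt_of_lt_of_le hM (mul_le_mul_of_nonneg_right h1 hs0.le)
  have b1 : |z.1| ≤ P := by
    rw [e1, abs_mul, abs_of_pos hρ0]
    have := Real.abs_cos_le_one (ar z)
    nlinarith
  have b2 : |z.2| ≤ P := by
    rw [e2, abs_mul, abs_of_pos hρ0]
    have := Real.abs_sin_le_one (ar z)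
    nlinarith
  obtain ⟨b3, b4⟩ := abs_le.1 b1
  obtain ⟨b5, b6⟩ := abs_le.1 b2
  have hP0 : 0 < P := lt_of_lt_of_le hρ0 h2
  have hpi := Real.pi_pos
  fin_cases i
  · -- upper left
    simp only [sec5] at h3
    have h4 : ar z ∈ Icc (Real.pi / 2 + a) (Real.pi - a) := h3
    have c1 := cos_le ha h4.1 (by linarith [h4.2])
    have c2 := sin_ge ha (by linarith [h4.1]) h4.2
    have d1 : z.1 < -1 := by rw [e1]; nlinarith
    have d2 : 1 < z.2 := by rw [e2]; nlinarith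
    refine ⟨(-1 - z.1, z.2), ?_⟩
    simp only [isoR, vv, xx, yy]
    simp
    refine ⟨by linarith, by linarith, by linarith, by linarith⟩
  · have h4 : ar z ∈ Icc a (Real.pi - a) := h3
    have c2 := sin_ge ha h4.1 h4.2
    have d2 : 1 < z.2 := by rw [e2]; nlinarith
    refine ⟨(z.1 + S, z.2 - 1), ?_⟩
    simp only [isoR, vv, xx, yy]
    simp
    refine ⟨by linarith, by linarith, by linarith, by linarith⟩
  · have h4 : ar z ∈ Icc (-(Real.pi / 2) + a) (Real.pi / 2 - a) := h3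
    have c2 := cos_ge ha h4.1 h4.2
    have d1 : 1 < z.1 := by rw [e1]; nlinarith
    refine ⟨(z.1 - 1, z.2 + S), ?_⟩
    simp only [isoR, vv, xx, yy]
    simp
    refine ⟨by linarith, by linarith, by linarith, by linarith⟩
  · have h4 : ar z ∈ Icc (-Real.pi + a) (-a) := h3
    have c2 := sin_ge (x := -ar z) ha (by linarith [h4.2]) (by linarith [h4.1])
    rw [Real.sin_neg] at c2
    have d2 : z.2 < -1 := by rw [e2]; nlinarith
    refine ⟨(z.1 + S, -1 - z.2), ?_⟩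
    simp only [isoR, vv, xx, yy]
    simp
    refine ⟨by linarith, by linarith, by linarith, by linarith⟩
  · have h4 : ar z ∈ Icc (-Real.pi + a) (-(Real.pi / 2) - a) := h3
    have c1 := cos_le (x := -ar z) ha (by linarith [h4.2]) (by linarith [h4.1])
    have c2 := sin_ge (x := -ar z) ha (by linarith [h4.2]) (by linarith [h4.1])
    rw [Real.sin_neg] at c2
    rw [Real.cos_neg] at c1
    have d1 : z.1 < -1 := by rw [e1]; nlinarith
    have d2 : z.2 < -1 := by rw [e2]; nlinarith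
    refine ⟨(-1 - z.1, -z.2), ?_⟩
    simp only [isoR, vv, xx, yy]
    simp
    refine ⟨by linarith, by linarith, by linarith, by linarith⟩

end Vale.Agent.P159.T1.D.H770
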