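import Mathlib

/-!
The radial profile of one ring: `Γ τ = ℓ G (τ / ℓ)`, `G' = ee p`, `ee p = 1` on `[2, p - 2]`,
`ee p = 0` off `[1, p - 1]`.
-/

open Filter Topology MeasureTheory Set

namespace Vale.Agent.P159.T1.D.H770

/-- smooth plateau -/
noncomputable def ee (p : ℝ) (x : ℝ) : ℝ :=
  Real.smoothTransition (x - 1) * Real.smoothTransition (p - 1 - x)

lemma ee_contDiff (p : ℝ) {n : ℕ∞} : ContDiff ℝ n (ee p) :=
  (Real.smoothTransition.contDiff.comp (contDiff_id.sub contDiff_const)).mul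
    (Real.smoothTransition.contDiff.comp (contDiff_const.sub contDiff_id))

lemma ee_nonneg (p x : ℝ) : 0 ≤ ee p x :=
  mul_nonneg (Real.smoothTransition.nonneg _) (Real.smoothTransition.nonneg _)

lemma ee_le_one (p x : ℝ) : ee p x ≤ 1 :=
  mul_le_one₀ (Real.smoothTransition.le_one _) (Real.smoothTransition.nonneg _)
    (Real.smoothTransition.le_one _)

lemma ee_left {p x : ℝ} (h : x ≤ 1) : ee p x = 0 := by
  unfold ee
  rw [Real.smoothTransition.zero_of_nonpos (by linarith), zero_mul]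

lemma ee_right {p x : ℝ} (h : p - 1 ≤ x) : ee p x = 0 := by
  unfold ee
  rw [Real.smoothTransition.zero_of_nonpos (x := p - 1 - x) (by linarith), mul_zero]

lemma ee_mid {p x : ℝ} (h : 2 ≤ x) (h' : x ≤ p - 2) : ee p x = 1 := by
  unfold ee
  rw [Real.smoothTransition.one_of_one_le (by linarith),
    Real.smoothTransition.one_of_one_le (by linarith), mul_one]

lemma ee_support (p : ℝ) : Function.support (ee p) ⊆ Icc 1 (p - 1) := by
  intro x hx
  rw [Function.mem_support] at hx
  constructor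
  · by_contra h
    exact hx (ee_left (not_le.1 h).le)
  · by_contra h
    exact hx (ee_right (not_le.1 h).le)

lemma ee_tsupport (p : ℝ) : tsupport (ee p) ⊆ Icc 1 (p - 1) :=
  closure_minimal (ee_support p) isClosed_Icc

lemma ee_compact (p : ℝ) : HasCompactSupport (ee p) :=
  HasCompactSupport.of_support_subset_isCompact isCompact_Icc (ee_support p)

/-- `∫ ee²` -/
noncomputable def J0 (p : ℝ) : ℝ := ∫ x, ee p x ^ 2

/-- `∫ ee'²` -/
noncomputable def J1 (p : ℝ) : ℝ := ∫ x, deriv (ee p) x ^ 2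

lemma J1_nonneg (p : ℝ) : 0 ≤ J1 p := integral_nonneg fun _ => sq_nonneg _

lemma sq_integrable {f : ℝ → ℝ} (hf : Continuous f) (hc : HasCompactSupport f) :
    Integrable fun x => f x ^ 2 := by
  have h : Continuous fun x => f x ^ 2 := hf.pow 2
  refine h.integrable_of_hasCompactSupport ?_
  have : (fun x => f x ^ 2) = (fun y : ℝ => y ^ 2) ∘ f := rfl
  rw [this]
  exact hc.comp_left (by norm_num)

lemma ee_sq_integrable (p : ℝ) : Integrable fun x => ee p x ^ 2 :=
  sq_integrable (ee_contDiff p (n := 0)).continuous (ee_compact p)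

lemma J0_ge (p : ℝ) : p - 4 ≤ J0 p := by
  rcases le_or_gt p 4 with h | h
  · have : 0 ≤ J0 p := integral_nonneg fun _ => sq_nonneg _
    linarith
  · have h1 : ∫ x in Icc (2 : ℝ) (p - 2), (1 : ℝ) = p - 4 := by
      rw [setIntegral_const, smul_eq_mul, mul_one, Measure.real, Real.volume_Icc,
        ENNReal.toReal_ofReal (by linarith)]
      ring
    have h2 : ∫ x in Icc (2 : ℝ) (p - 2), (1 : ℝ) = ∫ x in Icc (2 : ℝ) (p - 2), ee p x ^ 2 := by
      refine setIntegral_congr_fun measurableSet_Icc fun x hx => ?_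
      show (1 : ℝ) = ee p x ^ 2
      rw [ee_mid hx.1 hx.2, one_pow]
    rw [← h1, h2]
    exact setIntegral_le_integral (ee_sq_integrable p) (Eventually.of_forall fun _ => sq_nonneg _)

lemma J0_le {p : ℝ} (hp : 2 ≤ p) : J0 p ≤ p - 2 := by
  have h1 : ∫ x in Icc (1 : ℝ) (p - 1), (1 : ℝ) = p - 2 := by
    rw [setIntegral_const, smul_eq_mul, mul_one, Measure.real, Real.volume_Icc,
      ENNReal.toReal_ofReal (by linarith)]
    ring
  have h2 : J0 p = ∫ x in Icc (1 : ℝ) (p - 1), ee p x ^ 2 := by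
    unfold J0
    rw [setIntegral_eq_integral_of_forall_compl_eq_zero]
    intro x hx
    have : ee p x = 0 := by
      by_contra h
      exact hx (ee_support p h)
    rw [this]
    norm_num
  rw [h2, ← h1]
  refine setIntegral_mono (ee_sq_integrable p).integrableOn ?_ fun x => ?_
  · exact integrableOn_const (by rw [Real.volume_Icc]; exact ENNReal.ofReal_ne_top)
  · have h3 := ee_nonneg p x
    have h4 := ee_le_one p x
    nlinarith

/-- primitive of `ee` -/
noncomputable def GG (p : ℝ) (x : ℝ) : ℝ := ∫ t in (0 : ℝ)..x, ee p t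

lemma GG_hasDeriv (p x : ℝ) : HasDerivAt (GG p) (ee p x) x := by
  have hc := (ee_contDiff p (n := 0)).continuous
  exact intervalIntegral.integral_hasDerivAt_right (hc.intervalIntegrable _ _)
    (hc.stronglyMeasurableAtFilter _ _) hc.continuousAt

lemma GG_deriv (p : ℝ) : deriv (GG p) = ee p := funext fun x => (GG_hasDeriv p x).deriv

lemma GG_contDiff (p : ℝ) : ContDiff ℝ 3 (GG p) := by
  have h : (3 : WithTop ℕ∞) = 2 + 1 := by norm_num
  rw [h, contDiff_succ_iff_deriv]
  refine ⟨fun x => (GG_hasDeriv p x).differentiableAt, fun h => ?_, ?_⟩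
  · exact absurd h (by decide)
  · rw [GG_deriv]
    exact ee_contDiff p (n := 2)

/-- the profile -/
noncomputable def Gm (l p : ℝ) (τ : ℝ) : ℝ := l * GG p (τ / l)

variable {l p : ℝ}

lemma Gm_hasDeriv (hl : 0 < l) (τ : ℝ) : HasDerivAt (Gm l p) (ee p (τ / l)) τ := by
  have h1 : HasDerivAt (fun τ : ℝ => τ / l) (1 / l) τ := (hasDerivAt_id τ).div_const l
  have h2 := ((GG_hasDeriv p (τ / l)).comp τ h1).const_mul l
  have h3 : l * (ee p (τ / l) * (1 / l)) = ee p (τ / l) := by
    field_simp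
  rw [h3] at h2
  exact h2

lemma Gm_deriv (hl : 0 < l) : deriv (Gm l p) = fun τ => ee p (τ / l) :=
  funext fun τ => (Gm_hasDeriv hl τ).deriv

lemma Gm_contDiff : ContDiff ℝ 3 (Gm l p) :=
  contDiff_const.mul ((GG_contDiff p).comp (contDiff_id.div_const l))

lemma Gm_mono (hl : 0 < l) : Monotone (Gm l p) :=
  monotone_of_deriv_nonneg (fun τ => (Gm_hasDeriv hl τ).differentiableAt) fun τ => by
    rw [Gm_deriv hl]
    exact ee_nonneg _ _

lemma Gm_mono' (hl : 0 < l) : Monotone fun τ => τ - Gm l p τ := by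
  refine monotone_of_deriv_nonneg
    (fun τ => differentiableAt_id.sub (Gm_hasDeriv hl τ).differentiableAt) fun τ => ?_
  have h : HasDerivAt (fun τ => τ - Gm l p τ) (1 - ee p (τ / l)) τ :=
    (hasDerivAt_id τ).sub (Gm_hasDeriv (p := p) hl τ)
  rw [h.deriv]
  have := ee_le_one p (τ / l)
  linarith

/-- the profile is constant where its derivative vanishes -/
lemma const_of_deriv {f : ℝ → ℝ} {s : Set ℝ} (hs : Convex ℝ s)
    (hf : ∀ x, DifferentiableAt ℝ f x) (h0 : ∀ x ∈ s, deriv f x = 0) {x y : ℝ} (hx : x ∈ s)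
    (hy : y ∈ s) : f x = f y := by
  refine hs.is_const_of_fderivWithin_eq_zero (𝕜 := ℝ)
    (fun z _ => (hf z).differentiableWithinAt) (fun z hz => ?_) hx hy
  by_cases hu : UniqueDiffWithinAt ℝ s z
  · rw [(hf z).fderivWithin hu]
    ext
    rw [← deriv, h0 z hz]
    rfl
  · exact fderivWithin_zero_of_not_uniqueDiffWithinAt hu

lemma Gm_left (hl : 1 ≤ l) {τ : ℝ} (h : τ ≤ 1) : Gm l p τ = Gm l p 1 := by
  have hl0 : 0 < l := by linarith
  refine const_of_deriv (s := Iic (1 : ℝ)) (convex_Iic _)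
    (fun x => (Gm_hasDeriv hl0 x).differentiableAt) (fun x hx => ?_) h (mem_Iic.2 le_rfl)
  rw [Gm_deriv hl0]
  refine ee_left ?_
  rw [div_le_one hl0]
  exact (mem_Iic.1 hx).trans hl

lemma Gm_right (hl : 0 < l) {τ T : ℝ} (hT : (p - 1) * l ≤ T) (h : T ≤ τ) :
    Gm l p τ = Gm l p T := by
  refine const_of_deriv (s := Ici T) (convex_Ici _)
    (fun x => (Gm_hasDeriv hl x).differentiableAt) (fun x hx => ?_) h (mem_Ici.2 le_rfl)
  rw [Gm_deriv hl]
  refine ee_right ?_
  rw [le_div_iff₀ hl]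
  exact hT.trans hx

lemma Gm_tsupport (hl : 0 < l) : tsupport (deriv (Gm l p)) ⊆ Icc l ((p - 1) * l) := by
  refine closure_minimal (fun τ hτ => ?_) isClosed_Icc
  rw [Function.mem_support, Gm_deriv hl] at hτ
  have h := ee_support p (Function.mem_support.2 hτ)
  rw [mem_Icc, le_div_iff₀ hl, div_le_iff₀ hl, one_mul] at h
  exact h

lemma Gm_compact (hl : 0 < l) : HasCompactSupport (deriv (Gm l p)) :=
  HasCompactSupport.of_support_subset_isCompact isCompact_Icc
    (subset_closure.trans (Gm_tsupport hl))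

lemma Gm_contDiff' (hl : 0 < l) : ContDiff ℝ 2 (deriv (Gm l p)) := by
  rw [Gm_deriv hl]
  exact (ee_contDiff p (n := 2)).comp (contDiff_id.div_const l)

lemma Gm_I0 (hl : 0 < l) : ∫ τ, deriv (Gm l p) τ ^ 2 = l * J0 p := by
  rw [Gm_deriv hl]
  have := Measure.integral_comp_div (fun x => ee p x ^ 2) l
  rw [this, abs_of_pos hl, smul_eq_mul]
  rfl

lemma Gm_I1 (hl : 0 < l) : ∫ τ, deriv (deriv (Gm l p)) τ ^ 2 = J1 p / l := by
  have h1 : deriv (deriv (Gm l p)) = fun τ => (1 / l) * deriv (ee p) (τ / l) := by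
    funext τ
    rw [Gm_deriv hl]
    have h2 : HasDerivAt (fun τ : ℝ => τ / l) (1 / l) τ := (hasDerivAt_id τ).div_const l
    have h3 : HasDerivAt (ee p) (deriv (ee p) (τ / l)) (τ / l) :=
      (((ee_contDiff p (n := 1)).differentiable (by norm_num)) _).hasDerivAt
    have h4 := (h3.comp τ h2).deriv
    rw [mul_comm] at h4
    exact h4
  rw [h1]
  simp only [mul_pow]
  rw [integral_const_mul]
  have := Measure.integral_comp_div (fun x => deriv (ee p) x ^ 2) l
  rw [this, abs_of_pos hl, smul_eq_mul]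
  unfold J1
  field_simp

end Vale.Agent.P159.T1.D.H770
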