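import Vale.Agent.P159.T1.D.H770.Geo
import Vale.Agent.P159.T1.D.H770.Prof
import Vale.Agent.P159.T1.D.H469.Tri
import Vale.Agent.P159.H170.Final

/-!
`StmtRing` from the covering bound `StmtGV`, the upper bound `StmtUV`, the log-polar calculus
`StmtPolA` … `StmtPolE` and the lattice limit `StmtBG`.
-/

open Filter Topology MeasureTheory Set

namespace Vale.Agent.P159.T1.D.H770

open Vale.Agent.P159.T1.D.H469

/-- comparison of two variances -/
lemma Vr_split {b : ℝ} (hb : 0 ≤ b) (U : Finset Z2) (G B : Bnd → ℝ) {x : ℝ} (hx : 0 < x) :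
    Vr b U G ≤ (1 + x) * Vr b U B + (1 + 1 / x) * Vr b U (fun e => B e - G e) := by
  set D : Bnd → ℝ := fun e => B e - G e with hD
  have h1 := Vr_add_smul hb U B D (-1)
  have h2 := Vr_add_smul hb U B D (1 / x)
  have h3 : (fun e => B e + -1 * D e) = G := by
    funext e
    simp only [hD]
    ring
  rw [h3] at h1
  have h4 := Vr_nonneg hb U (fun e => B e + 1 / x * D e)
  rw [h2] at h4
  have h5 : 0 ≤ x * (Vr b U B + 2 * (1 / x) * Cv b U B D + (1 / x) ^ 2 * Vr b U D) :=
    mul_nonneg hx.le h4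
  have h6 : x * (Vr b U B + 2 * (1 / x) * Cv b U B D + (1 / x) ^ 2 * Vr b U D) =
      x * Vr b U B + 2 * Cv b U B D + 1 / x * Vr b U D := by
    field_simp
  rw [h6] at h5
  rw [h1]
  nlinarith

/-! ### the coefficient -/

lemma cth_measurable (Y V : ℝ) (q : ℕ) : Measurable (cth Y V q) := by
  unfold cth
  exact Measurable.ite measurableSet_Iio measurable_const measurable_const

lemma cth_bdd (Y V : ℝ) (q : ℕ) (θ : ℝ) :
    |cth Y V q θ| ≤ |V / (Y * ang q)| + |V / (Y * (2 * Real.pi - ang q))| := by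
  unfold cth
  split_ifs
  · linarith [abs_nonneg (V / (Y * (2 * Real.pi - ang q)))]
  · rw [abs_neg]
    linarith [abs_nonneg (V / (Y * ang q))]

lemma ii_of_bdd {f : ℝ → ℝ} (hf : Measurable f) {C : ℝ} (hC : ∀ x, |f x| ≤ C) (a b : ℝ) :
    IntervalIntegrable f volume a b := by
  rw [intervalIntegrable_iff]
  refine Measure.integrableOn_of_bounded (M := C) ?_ hf.aestronglyMeasurable ?_
  · rw [uIoc]
    exact (measure_Ioc_lt_top).ne
  · exact Eventually.of_forall fun x => by
      rw [Real.norm_eq_abs]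
      exact hC x

lemma cth_sq {Y V : ℝ} (hY : 0 < Y) {q : ℕ} (hd : 0 < ang q) (hd' : ang q < 2 * Real.pi) :
    ∫ θ in (-Real.pi)..Real.pi, cth Y V q θ ^ 2 = 2 * En V q / Y ^ 2 := by
  have hm : Measurable fun θ => cth Y V q θ ^ 2 := (cth_measurable Y V q).pow_const 2
  have hb : ∀ θ, |cth Y V q θ ^ 2| ≤
      (|V / (Y * ang q)| + |V / (Y * (2 * Real.pi - ang q))|) ^ 2 := by
    intro θ
    rw [abs_pow]
    exact pow_le_pow_left₀ (abs_nonneg _) (cth_bdd Y V q θ) 2
  rw [← intervalIntegral.integral_add_adjacent_intervals (b := -Real.pi + ang q)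
    (ii_of_bdd hm hb _ _) (ii_of_bdd hm hb _ _)]
  have h1 : ∫ θ in (-Real.pi)..(-Real.pi + ang q), cth Y V q θ ^ 2 =
      ∫ _ in (-Real.pi)..(-Real.pi + ang q), (V / (Y * ang q)) ^ 2 := by
    refine intervalIntegral.integral_congr_ae ?_
    have h2 : ∀ᵐ θ : ℝ, θ ≠ -Real.pi + ang q := by
      rw [ae_iff]
      simp
    filter_upwards [h2] with θ h3 h4
    rw [uIoc_of_le (by linarith)] at h4
    unfold cth
    rw [if_pos (lt_of_le_of_ne h4.2 h3)]
  have h2 : ∫ θ in (-Real.pi + ang q)..Real.pi, cth Y V q θ ^ 2 =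
      ∫ _ in (-Real.pi + ang q)..Real.pi, (-(V / (Y * (2 * Real.pi - ang q)))) ^ 2 := by
    refine intervalIntegral.integral_congr_ae (Eventually.of_forall fun θ h4 => ?_)
    rw [uIoc_of_le (by linarith)] at h4
    unfold cth
    rw [if_neg (not_lt.2 h4.1.le)]
  rw [h1, h2, intervalIntegral.integral_const, intervalIntegral.integral_const]
  unfold En
  have h5 : 2 * Real.pi - ang q ≠ 0 := by linarith
  simp only [smul_eq_mul]
  have h6 : -Real.pi + ang q - -Real.pi = ang q := by ring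
  have h7 : Real.pi - (-Real.pi + ang q) = 2 * Real.pi - ang q := by ring
  rw [h6, h7]
  field_simp

/-- energy of a profile close to the coefficient -/
lemma energy_ge {Y V : ℝ} (hY : 0 < Y) {q : ℕ} (hd : 0 < ang q) (hd' : ang q < 2 * Real.pi)
    {u : ℝ → ℝ} (hu : ContDiff ℝ 2 u) (hs : tsupport u ⊆ Ioo (-Real.pi) Real.pi) {δ x : ℝ}
    (hx : 0 < x)
    (h : ∫ θ in (-Real.pi)..Real.pi, (cth Y V q θ - deriv u θ) ^ 2 ≤ δ) :
    2 * En V q / Y ^ 2 - (1 + 1 / x) * δ ≤ (1 + x) * ∫ θ, deriv u θ ^ 2 := by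
  have hu' : Continuous (deriv u) := hu.continuous_deriv (by norm_num)
  have hcs : HasCompactSupport u :=
    HasCompactSupport.of_support_subset_isCompact isCompact_Icc
      (subset_closure.trans (hs.trans Ioo_subset_Icc_self))
  have hcs' : HasCompactSupport (deriv u) := hcs.deriv
  obtain ⟨C, hC⟩ : ∃ C, ∀ θ, |deriv u θ| ≤ C := by
    obtain ⟨C, hC⟩ := hu'.bounded_above_of_compact_support hcs'
    exact ⟨C, hC⟩
  have hsup : Function.support (fun θ => deriv u θ ^ 2) ⊆ Ioc (-Real.pi) Real.pi := by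
    intro θ hθ
    have h1 : deriv u θ ≠ 0 := by
      intro h0
      apply hθ
      show deriv u θ ^ 2 = 0
      rw [h0]
      norm_num
    have h2 : θ ∈ tsupport u := support_deriv_subset h1
    exact Ioo_subset_Ioc_self (hs h2)
  rw [← intervalIntegral.integral_eq_integral_of_support_subset hsup, ← cth_sq hY hd hd']
  have i1 : IntervalIntegrable (fun θ => deriv u θ ^ 2) volume (-Real.pi) Real.pi :=
    (hu'.pow 2).intervalIntegrable _ _
  have hm : Measurable fun θ => cth Y V q θ ^ 2 := (cth_measurable Y V q).pow_const 2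
  have i2 : IntervalIntegrable (fun θ => cth Y V q θ ^ 2) volume (-Real.pi) Real.pi :=
    ii_of_bdd hm (C := (|V / (Y * ang q)| + |V / (Y * (2 * Real.pi - ang q))|) ^ 2) (fun θ => by
      rw [abs_pow]
      exact pow_le_pow_left₀ (abs_nonneg _) (cth_bdd Y V q θ) 2) _ _
  have i3 : IntervalIntegrable (fun θ => (cth Y V q θ - deriv u θ) ^ 2) volume
      (-Real.pi) Real.pi :=
    ii_of_bdd (((cth_measurable Y V q).sub hu'.measurable).pow_const 2)
      (C := (|V / (Y * ang q)| + |V / (Y * (2 * Real.pi - ang q))| + C) ^ 2) (fun θ => by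
      rw [abs_pow]
      refine pow_le_pow_left₀ (abs_nonneg _) ?_ 2
      refine (abs_sub _ _).trans ?_
      have := cth_bdd Y V q θ
      linarith [hC θ]) _ _
  have h1 : ∫ θ in (-Real.pi)..Real.pi, cth Y V q θ ^ 2 ≤
      ∫ θ in (-Real.pi)..Real.pi, ((1 + x) * deriv u θ ^ 2 +
        (1 + 1 / x) * (cth Y V q θ - deriv u θ) ^ 2) := by
    refine intervalIntegral.integral_mono_on (by linarith [Real.pi_pos]) i2
      ((i1.const_mul _).add (i3.const_mul _)) fun θ _ => ?_
    obtain ⟨A, hA⟩ : ∃ A, A = cth Y V q θ := ⟨_, rfl⟩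
    obtain ⟨B, hB⟩ : ∃ B, B = deriv u θ := ⟨_, rfl⟩
    rw [← hA, ← hB]
    have h2 : (1 + x) * B ^ 2 + (1 + 1 / x) * (A - B) ^ 2 - A ^ 2 =
        x * (B - 1 / x * (A - B)) ^ 2 := by
      field_simp
      ring
    have h3 : 0 ≤ x * (B - 1 / x * (A - B)) ^ 2 := by positivity
    linarith
  rw [intervalIntegral.integral_add (i1.const_mul _) (i3.const_mul _),
    intervalIntegral.integral_const_mul, intervalIntegral.integral_const_mul] at h1
  have h4 : (1 + 1 / x) * ∫ θ in (-Real.pi)..Real.pi, (cth Y V q θ - deriv u θ) ^ 2 ≤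
      (1 + 1 / x) * δ := mul_le_mul_of_nonneg_left h (by positivity)
  linarith

end Vale.Agent.P159.T1.D.H770
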