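import Vale.Agent.P159.T1.D.H770.Ring
import Vale.Agent.P159.T1.D.H770.Arith
import Vale.Agent.P159.T1.D.H407.Tilt

/-!
`ring_of`: the statement for one ring from `StmtGV`, `StmtUV`, `StmtPolA` … `StmtPolE`, `StmtBG`.
-/

open Filter Topology MeasureTheory Set

namespace Vale.Agent.P159.T1.D.H770

open Vale.Agent.P159.T1.D.H469

/-- the choice of the scale `M` -/
lemma choose_M {c a A0 A1 m : ℝ} (hc : 0 < c) (ha : 0 < a) (hm : 0 < m) :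
    ∃ M : ℕ, 8 ≤ M ∧ 1 ≤ Real.log M ∧ 1 < (M : ℝ) * a ∧
      A0 * (8 / (M : ℝ)) ^ c + A1 / Real.log M ≤ m := by
  have h1 : Tendsto (fun M : ℕ => (M : ℝ)) atTop atTop := tendsto_natCast_atTop_atTop
  have h2 : Tendsto (fun M : ℕ => Real.log M) atTop atTop := Real.tendsto_log_atTop.comp h1
  have h3 : Tendsto (fun M : ℕ => (8 / (M : ℝ)) ^ c) atTop (𝓝 0) := by
    have h4 : Tendsto (fun M : ℕ => 8 / (M : ℝ)) atTop (𝓝 0) := h1.const_div_atTop 8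
    have h5 := h4.rpow_const (p := c) (Or.inr hc.le)
    rwa [Real.zero_rpow hc.ne'] at h5
  have h6 : Tendsto (fun M : ℕ => A0 * (8 / (M : ℝ)) ^ c + A1 / Real.log M) atTop (𝓝 0) := by
    have := (h3.const_mul A0).add (h2.const_div_atTop A1)
    simpa using this
  obtain ⟨M, e1, e2, e3, e4⟩ := ((eventually_ge_atTop 8).and
    ((h2.eventually_ge_atTop 1).and ((h1.eventually_gt_atTop (1 / a)).and
      (h6.eventually (ge_mem_nhds hm))))).exists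
  refine ⟨M, e1, e2, ?_, e4⟩
  rwa [div_lt_iff₀ ha] at e3

/-- the small parameters -/
lemma choose_par {Y Sg ε : ℝ} (hY : 0 < Y) (hS0 : 0 < Sg) (hε : 0 < ε) :
    ∃ (x X δ : ℝ) (p : ℕ), x = ε / 8 ∧ 0 < x ∧ X = 1 + 1 / x ∧ 0 < X ∧ 0 < δ ∧
      X * δ ≤ Sg * ε / 16 ∧ X * (Y + 1) * δ ≤ Y * Sg * ε / 16 ∧ 5 ≤ p ∧
      (p : ℝ) * (1 - ε / 16) ≤ p - 4 := by
  obtain ⟨x, hx⟩ : ∃ x, x = ε / 8 := ⟨_, rfl⟩
  have hx0 : 0 < x := by rw [hx]; positivity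
  obtain ⟨X, hX⟩ : ∃ X, X = 1 + 1 / x := ⟨_, rfl⟩
  have hX0 : 0 < X := by rw [hX]; positivity
  obtain ⟨δ, hδ⟩ : ∃ δ, δ = Sg * ε / (16 * X * (1 + (Y + 1) / Y)) := ⟨_, rfl⟩
  have hδ0 : 0 < δ := by rw [hδ]; positivity
  have hδ1 : X * δ ≤ Sg * ε / 16 := by
    have e : X * δ = Sg * ε / 16 * (1 / (1 + (Y + 1) / Y)) := by
      rw [hδ]; field_simp
    rw [e]
    refine mul_le_of_le_one_right (by positivity) ?_
    rw [div_le_one (by positivity)]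
    have : 0 < (Y + 1) / Y := by positivity
    linarith
  have hδ2 : X * (Y + 1) * δ ≤ Y * Sg * ε / 16 := by
    have e : X * (Y + 1) * δ = Y * Sg * ε / 16 * (((Y + 1) / Y) / (1 + (Y + 1) / Y)) := by
      rw [hδ]; field_simp
    rw [e]
    refine mul_le_of_le_one_right (by positivity) ?_
    rw [div_le_one (by positivity)]
    linarith
  obtain ⟨p, hp⟩ : ∃ p : ℕ, p = ⌈64 / ε⌉₊ + 5 := ⟨_, rfl⟩
  have hpR : 64 / ε ≤ p := by
    rw [hp]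
    push_cast
    linarith [Nat.le_ceil (64 / ε)]
  refine ⟨x, X, δ, p, hx, hx0, hX, hX0, hδ0, hδ1, hδ2, by omega, ?_⟩
  have : 64 ≤ p * ε := by
    rw [div_le_iff₀ hε] at hpR
    exact hpR
  linarith

lemma sec5_Ioo {α : ℝ} (hα : 0 < α) (i : Fin 5) : sec5 α i ⊆ Ioo (-Real.pi) Real.pi := by
  have hpi := Real.pi_pos
  intro θ h
  fin_cases i
  · have h' : θ ∈ Icc (Real.pi / 2 + α) (Real.pi - α) := h
    constructor <;> linarith [h'.1, h'.2]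
  · have h' : θ ∈ Icc α (Real.pi - α) := h
    constructor <;> linarith [h'.1, h'.2]
  · have h' : θ ∈ Icc (-(Real.pi / 2) + α) (Real.pi / 2 - α) := h
    constructor <;> linarith [h'.1, h'.2]
  · have h' : θ ∈ Icc (-Real.pi + α) (-α) := h
    constructor <;> linarith [h'.1, h'.2]
  · have h' : θ ∈ Icc (-Real.pi + α) (-(Real.pi / 2) - α) := h
    constructor <;> linarith [h'.1, h'.2]

/-- the pieces, with an opening smaller than `1` -/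
lemma pieces (hE : StmtPolE) {u : ℝ → ℝ} (hu : ContDiff ℝ 2 u)
    (hus : tsupport u ⊆ Ioo (-Real.pi) Real.pi) :
    ∃ (w : Fin 5 → ℝ → ℝ) (α : ℝ), 0 < α ∧ 0 < Real.sin α ∧ (∀ i, ContDiff ℝ 2 (w i)) ∧
      (∀ θ, u θ = ∑ i, w i θ) ∧ ∀ i, tsupport (w i) ⊆ sec5 α i := by
  obtain ⟨w, α0, hα0, hw, hwu, hw0, hw1, hw2, hw3, hw4⟩ := hE u hu hus
  obtain ⟨α, hα, hαle, hα1⟩ : ∃ α : ℝ, 0 < α ∧ α ≤ α0 ∧ α ≤ 1 :=
    ⟨min α0 1, lt_min hα0 one_pos, min_le_left _ _, min_le_right _ _⟩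
  have hsin : 0 < Real.sin α :=
    Real.sin_pos_of_pos_of_lt_pi hα (by linarith [Real.pi_gt_three])
  refine ⟨w, α, hα, hsin, hw, hwu, fun i => ?_⟩
  fin_cases i
  · exact hw0.trans (Icc_subset_Icc (by linarith) (by linarith))
  · exact hw1.trans (Icc_subset_Icc (by linarith) (by linarith))
  · exact hw2.trans (Icc_subset_Icc (by linarith) (by linarith))
  · exact hw3.trans (Icc_subset_Icc (by linarith) (by linarith))
  · exact hw4.trans (Icc_subset_Icc (by linarith) (by linarith))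

/-- the radii -/
lemma radii {M p : ℕ} (hM : 8 ≤ M) (hp : 5 ≤ p) :
    8 * M ^ (p - 1) ≤ M ^ p ∧ 1 ≤ M ^ (p - 1) ∧
      Real.log ((M ^ p : ℕ) : ℝ) = p * Real.log M ∧
      Real.exp (((p : ℝ) - 1) * Real.log M) = ((M ^ (p - 1) : ℕ) : ℝ) := by
  have hM0 : (0 : ℝ) < M := by positivity
  refine ⟨?_, Nat.one_le_pow _ _ (by omega), ?_, ?_⟩
  · have : M ^ p = M * M ^ (p - 1) := by
      rw [← pow_succ']
      congr 1
      omega
    rw [this]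
    exact Nat.mul_le_mul_right _ hM
  · push_cast
    rw [Real.log_pow]
  · have h : (p : ℝ) - 1 = ((p - 1 : ℕ) : ℝ) := by
      rw [Nat.cast_sub (by omega : 1 ≤ p), Nat.cast_one]
    rw [h, Real.exp_nat_mul, Real.exp_log hM0]
    push_cast
    rfl

/-- the ratio of the radii -/
lemma ratio {M P K : ℕ} (hM : 8 ≤ M) (hP : 1 ≤ P) (hK : K = M * P) {c : ℝ} (hc : 0 < c) :
    0 ≤ (((2 * P + 2 : ℕ) : ℝ) / ((K - 2 : ℕ) : ℝ)) ^ c ∧
      (((2 * P + 2 : ℕ) : ℝ) / ((K - 2 : ℕ) : ℝ)) ^ c ≤ (8 / (M : ℝ)) ^ c := by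
  have hPR : (1 : ℝ) ≤ P := by exact_mod_cast hP
  have hM8R : (8 : ℝ) ≤ M := by exact_mod_cast hM
  have hM0 : (0 : ℝ) < M := by positivity
  have h8 : 8 ≤ M * P := by nlinarith
  have hK2 : ((K - 2 : ℕ) : ℝ) = M * P - 2 := by
    rw [Nat.cast_sub (by omega), hK]
    push_cast
    rfl
  have hMP : (8 : ℝ) ≤ M * P := by exact_mod_cast h8
  rw [hK2]
  refine ⟨Real.rpow_nonneg (div_nonneg (by positivity) (by linarith)) _, ?_⟩
  refine Real.rpow_le_rpow (div_nonneg (by positivity) (by linarith)) ?_ hc.le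
  rw [div_le_div_iff₀ (by linarith) hM0]
  push_cast
  nlinarith

theorem ring_of (hGV : StmtGV) (hUV : StmtUV) (hA : StmtPolA) (hB : StmtPolB) (hC : StmtPolC)
    (hD : StmtPolD) (hE : StmtPolE) (hBG : StmtBG) : StmtRing := by
  intro b V q ε0 hb hV hq hε0
  have hpi := Real.pi_pos
  have hb0 : 0 < b := H170.bCrit_pos.trans_le hb
  set Y := helicity b with hYdef
  have hY : 0 < Y := by
    have h := H170.final.2.2.1.2.2.2 b hb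
    exact lt_of_lt_of_le (by positivity) (h.2.1.trans h.2.2.1)
  have hd : 0 < ang q := ang_pos hq
  have hd' : ang q < 2 * Real.pi := by
    have := ang_lt q
    linarith
  have hd2 : 0 < 2 * Real.pi - ang q := by linarith
  -- energy per unit
  obtain ⟨Sg, hSg⟩ : ∃ Sg, Sg = 2 * En V q / Y ^ 2 := ⟨_, rfl⟩
  have hEn : 0 < En V q := by
    unfold En
    positivity
  have hS0 : 0 < Sg := by rw [hSg]; positivity
  -- small parameter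
  obtain ⟨ε, hε, hεle, hεh⟩ : ∃ ε : ℝ, 0 < ε ∧ ε ≤ ε0 ∧ ε ≤ 1 / 2 :=
    ⟨min ε0 (1 / 2), lt_min hε0 (by norm_num), min_le_left _ _, min_le_right _ _⟩
  obtain ⟨x, X, δ, p, hx, hx0, hX, hX0, hδ0, hδ1, hδ2, hp5, hp4⟩ := choose_par hY hS0 hε
  have hp5R : (5 : ℝ) ≤ p := by exact_mod_cast hp5
  -- the angular profile
  obtain ⟨u, hu, hus, huδ⟩ := hD Y V q hY hV hq δ hδ0
  obtain ⟨w, α, hα, hsin, hw, hwu, hus5⟩ := pieces hE hu hus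
  have hws : ∀ i, tsupport (w i) ⊆ Ioo (-Real.pi) Real.pi := fun i =>
    (hus5 i).trans (sec5_Ioo hα i)
  -- angular constants
  obtain ⟨A, hAdef⟩ : ∃ A, A = ∫ θ, deriv u θ ^ 2 := ⟨_, rfl⟩
  obtain ⟨B2, hB2⟩ : ∃ B2, B2 = ∫ θ, u θ ^ 2 := ⟨_, rfl⟩
  have hA0 : 0 ≤ A := by rw [hAdef]; exact integral_nonneg fun _ => sq_nonneg _
  have hB0 : 0 ≤ B2 := by rw [hB2]; exact integral_nonneg fun _ => sq_nonneg _
  have hAge : Sg * (1 - ε / 16) ≤ (1 + x) * A := by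
    have h := energy_ge hY hd hd' hu hus hx0 huδ
    rw [← hSg, ← hAdef, ← hX] at h
    linarith
  obtain ⟨Aw, hAw⟩ : ∃ Aw, Aw = ∑ i, ∫ θ, w i θ ^ 2 := ⟨_, rfl⟩
  obtain ⟨Bw, hBw⟩ : ∃ Bw, Bw = ∑ i, ∫ θ, deriv (w i) θ ^ 2 := ⟨_, rfl⟩
  have hAw0 : 0 ≤ Aw := by
    rw [hAw]; exact Finset.sum_nonneg fun i _ => integral_nonneg fun _ => sq_nonneg _
  have hBw0 : 0 ≤ Bw := by
    rw [hBw]; exact Finset.sum_nonneg fun i _ => integral_nonneg fun _ => sq_nonneg _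
  obtain ⟨W, hW⟩ : ∃ W, W = J1 p * Aw + p * Bw := ⟨_, rfl⟩
  have hJ1 := J1_nonneg p
  have hW0 : 0 ≤ W := by rw [hW]; positivity
  -- constants of the two inputs
  obtain ⟨Cg, cg, hCg, hcg, hG⟩ := hGV b hb
  obtain ⟨l, Cu, hCu, hU⟩ := hUV b 1 hb0 one_pos
  -- the scale
  obtain ⟨M, hM8, hM1, hMs, hMm⟩ := choose_M (A0 := 5 * Y * Cg * W)
    (A1 := 1 + X * ((Y + 1) * (J1 p * B2) + 1)) hcg hsin
    (by positivity : 0 < Y * Sg * p * ε / 4)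
  obtain ⟨ℓ, hℓ⟩ : ∃ ℓ, ℓ = Real.log M := ⟨_, rfl⟩
  rw [← hℓ] at hM1 hMm
  have hℓ0 : 0 < ℓ := by linarith
  have hM0 : (0 : ℝ) < M := by positivity
  have hM8R : (8 : ℝ) ≤ M := by exact_mod_cast hM8
  have hexp : Real.exp ℓ = M := by rw [hℓ, Real.exp_log hM0]
  obtain ⟨r1, r2, r3, r4⟩ := radii hM8 hp5
  rw [← hℓ] at r3 r4
  obtain ⟨K, hK⟩ : ∃ K : ℕ, K = M ^ p := ⟨_, rfl⟩
  obtain ⟨P, hP⟩ : ∃ P : ℕ, P = M ^ (p - 1) := ⟨_, rfl⟩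
  have hKP : K = M * P := by
    rw [hK, hP, ← pow_succ']
    congr 1
    omega
  rw [← hP] at r1 r2 r4
  rw [← hK] at r1 r3
  -- the profile
  obtain ⟨Γ, hΓ⟩ : ∃ Γ, Γ = Gm ℓ p := ⟨_, rfl⟩
  have hΓ3 : ContDiff ℝ 3 Γ := by rw [hΓ]; exact Gm_contDiff
  have hη2 : ContDiff ℝ 2 (deriv Γ) := by rw [hΓ]; exact Gm_contDiff' hℓ0
  have hηc : HasCompactSupport (deriv Γ) := by rw [hΓ]; exact Gm_compact hℓ0
  have hηs : tsupport (deriv Γ) ⊆ Icc ℓ ((p - 1) * ℓ) := by rw [hΓ]; exact Gm_tsupport hℓ0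
  have hη0 : (0 : ℝ) ∉ tsupport (deriv Γ) := fun h0 => by
    have := (hηs h0).1
    linarith
  have hI0 : ∫ τ, deriv Γ τ ^ 2 = ℓ * J0 p := by rw [hΓ]; exact Gm_I0 hℓ0
  have hI1 : ∫ τ, deriv (deriv Γ) τ ^ 2 = J1 p / ℓ := by rw [hΓ]; exact Gm_I1 hℓ0
  have hJ0 : (p : ℝ) - 4 ≤ J0 p := J0_ge p
  have hJ0' : J0 p ≤ p := (J0_le (by linarith)).trans (by linarith)
  have hJ00 : 0 ≤ J0 p := by linarith
  -- the five pieces and their supports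
  set ψ : Fin 5 → ℝ × ℝ → ℝ := fun i => pol (deriv Γ) (w i) with hψ
  have hψA := fun i => hA (deriv Γ) (w i) hη2 (hw i) hηc hη0 (hws i)
  have hquad : ∀ i, ∀ z ∈ tsupport (ψ i), ∃ q' : ℝ × ℝ, 0 < q'.1 ∧ q'.1 ≤ ((2 * P + 2 : ℕ) : ℝ) ∧
      0 < q'.2 ∧ q'.2 ≤ ((2 * P + 2 : ℕ) : ℝ) ∧
      isoR (vv (P + 1) i) (xx i) (yy i) false q' = z := by
    intro i z hz
    obtain ⟨h1, h2, h3⟩ := (hψA i).2.2 z hz
    have h4 := hηs h2
    refine piece_quad (M := M) (P := P) hα hMs hM0 ?_ ?_ h1 ?_ ?_ (hus5 i h3)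
    · push_cast
      linarith
    · push_cast
      linarith
    · rw [← hexp]
      exact Real.exp_le_exp.2 h4.1
    · rw [← r4]
      exact Real.exp_le_exp.2 h4.2
  obtain ⟨n0, hn0⟩ := hG 5 ψ (vv (P + 1)) xx yy (fun _ => false) (2 * P + 2) (K - 2)
    (by omega) (by omega) (fun i => (hψA i).1) (fun i => (hψA i).2.1) hquad 1 1 one_pos
  -- the lattice limit
  have hΦA := hA (deriv Γ) u hη2 hu hηc hη0 hus
  obtain ⟨L0, hL0⟩ := hBG Y V q Γ ((p - 1) * ℓ) (pol (deriv Γ) u) hY hV hq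
    (hΓ3.of_le (by norm_num)) (fun τ hτ => by rw [hΓ]; exact Gm_left hM1 hτ)
    (fun τ hτ => by rw [hΓ]; exact Gm_right hℓ0 le_rfl hτ) hΦA.1 hΦA.2.1
  obtain ⟨ε1, hε1⟩ : ∃ ε1, ε1 = 1 / (Y + 1 + Cu) := ⟨_, rfl⟩
  have hε10 : 0 < ε1 := by rw [hε1]; positivity
  have hε11 : (Y + 1) * ε1 + Cu * ε1 = 1 := by
    rw [hε1]
    field_simp
  obtain ⟨n1, hn1⟩ := hL0 L0 le_rfl l ε1 hε10
  refine ⟨K, max (max n0 n1) 1, Γ, by omega, le_max_right _ _,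
    by rw [hΓ]; exact Gm_mono hℓ0, by rw [hΓ]; exact Gm_mono' hℓ0,
    fun τ hτ => by rw [hΓ]; exact Gm_left hM1 hτ, fun τ hτ => ?_, fun n hn => ?_⟩
  · rw [r3] at hτ ⊢
    rw [hΓ]
    exact Gm_right hℓ0 (by linarith) hτ
  have hn0' : n0 ≤ n := (le_max_left n0 n1).trans ((le_max_left _ _).trans hn)
  have hn1' : n1 ≤ n := (le_max_right n0 n1).trans ((le_max_left _ _).trans hn)
  have hn1'' : 1 ≤ n := (le_max_right _ _).trans hn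
  -- GV
  have g1 := hn0 n hn0' (uu (P + 1) n) (fun i => uu_vv (P + 1) n i) (ann n (K * n - 1))
    (fun i f h1 h2 h3 h4 => box_ann hn1'' (R := K - 2) (by omega) (by omega) i f h1 h2 h3 h4)
    0 (by simp) (by simp)
  have hsum : (fun z => ∑ i, ψ i z) = pol (deriv Γ) u := by
    funext z
    simp only [hψ, pol]
    rw [← Finset.mul_sum, ← hwu]
  have hsum' : (fun f => ∑ i, smp (ψ i) n 0 f) = smp (pol (deriv Γ) u) n 0 := by
    funext f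
    simp only [smp]
    exact congrFun hsum _
  rw [hsum, hsum'] at g1
  have hDirΦ : Dir (pol (deriv Γ) u) = J1 p / ℓ * B2 + ℓ * J0 p * A := by
    rw [hB _ _ hη2 hu hηc hus, hI0, hI1, ← hB2, ← hAdef]
  have hDirψ : ∑ i, Dir (ψ i) = J1 p / ℓ * Aw + ℓ * J0 p * Bw := by
    rw [hAw, hBw, Finset.mul_sum, Finset.mul_sum, ← Finset.sum_add_distrib]
    refine Finset.sum_congr rfl fun i _ => ?_
    rw [hψ]
    simp only []
    rw [hB _ _ hη2 (hw i) hηc (hws i), hI0, hI1]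
  rw [hDirΦ, hDirψ] at g1
  -- BG and UV
  obtain ⟨f1, f2, f3⟩ := hn1 n hn1'
  have g2 := hU (ann n (K * n - 1)) (Sb L0 n) _ f1
  obtain ⟨vd, hvd⟩ : ∃ vd, vd = Vr b (ann n (K * n - 1)) (fun e =>
    Bf Y V q (fun τ => Γ (τ - Real.log n)) e - dr (smp (pol (deriv Γ) u) n 0) e) := ⟨_, rfl⟩
  rw [← hvd] at g2
  have hI := hC Y V q Γ u hY hV hq hΓ3 hu hηc hus
  rw [hI0, hI1, ← hB2] at hI
  obtain ⟨δ', hδ'⟩ : ∃ δ', δ' = ∫ θ in (-Real.pi)..Real.pi, (cth Y V q θ - deriv u θ) ^ 2 :=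
    ⟨_, rfl⟩
  rw [← hδ'] at hI huδ
  rw [hI] at f2
  have g3 := Vr_split hb0.le (ann n (K * n - 1)) (dr (smp (pol (deriv Γ) u) n 0))
    (Bf Y V q (fun τ => Γ (τ - Real.log n))) hx0
  rw [← hvd, ← hX] at g3
  obtain ⟨v, hv⟩ : ∃ v, v = Vr b (ann n (K * n - 1))
    (Bf Y V q (fun τ => Γ (τ - Real.log n))) := ⟨_, rfl⟩
  obtain ⟨vg, hvg⟩ : ∃ vg, vg = Vr b (ann n (K * n - 1))
    (dr (smp (pol (deriv Γ) u) n 0)) := ⟨_, rfl⟩
  rw [← hv, ← hvg] at g3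
  rw [← hvg] at g1
  rw [← hv]
  -- the ratio of the radii
  obtain ⟨hκ0, hκκ⟩ := ratio hM8 r2 hKP hcg
  obtain ⟨κ, hκ⟩ : ∃ κ, κ = (((2 * P + 2 : ℕ) : ℝ) / ((K - 2 : ℕ) : ℝ)) ^ cg := ⟨_, rfl⟩
  obtain ⟨κ', hκ'⟩ : ∃ κ', κ' = (8 / (M : ℝ)) ^ cg := ⟨_, rfl⟩
  rw [← hκ] at hκ0 hκκ
  rw [← hκ'] at hκκ
  rw [← hκ] at g1
  rw [← hκ'] at hMm
  have hδ'0 : 0 ≤ δ' := by
    rw [hδ']
    exact intervalIntegral.integral_nonneg (by linarith) fun _ _ => sq_nonneg _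
  -- the remaining inequalities
  have g1' : Y * (J1 p / ℓ * B2 + ℓ * J0 p * A) -
      5 * (Y * Cg * κ * (J1 p / ℓ * Aw + ℓ * J0 p * Bw)) - 1 ≤ vg := by
    have e : ((5 : ℕ) : ℝ) = 5 := by norm_num
    rw [e] at g1
    exact g1
  have g2' : vd ≤ (Y + 1) * (ℓ * J0 p * δ' + J1 p / ℓ * B2) + 1 := by
    have h1 := mul_le_mul_of_nonneg_left f2 (by positivity : 0 ≤ Y + 1)
    have h2 := mul_le_mul_of_nonneg_left f3 hCu.le
    linarith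
  have hk := arith0 hY hX0 hδ2 (by linarith : (0 : ℝ) < p) hA0 hB0 hAw0 hBw0 hW hJ1 hCg hM1 hMm
    hJ0 hJ00 hJ0' hκ0 hκκ hδ'0 huδ g1' g2' g3
  have hf := arith hY hS0 hε hεle hεh hx hp5R hp4 hAge hM1 hk
  have hT : 2 * En V q / Y * Real.log K = Y * Sg * p * ℓ := by
    rw [r3, hSg]
    field_simp
  rw [hT]
  exact hf

end Vale.Agent.P159.T1.D.H770
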